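import Vale.Agent.P088.Energy
import Vale.Agent.P088.Frame

namespace Vale.Agent.Results.P088.FullDataTrivialConn

open Vale.Agent.P088 MeasureTheory Matrix
open scoped ContDiff

variable {n N : ℕ}

lemma isUnitaryConn_zero (Ω : Set (Sp n)) :
    IsUnitaryConn Ω (0 : Sp n → Fin n → Matrix (Fin N) (Fin N) ℂ) where
  smooth := fun _ _ _ => contDiff_const
  skew := fun _ _ _ => by simp

lemma cov_zero_const (c : Fib N) (x : Sp n) :
    cov (0 : Sp n → Fin n → Matrix (Fin N) (Fin N) ℂ) (fun _ => c) x = 0 := by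
  funext i
  simp [cov, dcoord]

lemma energy_const_right (Ω : Set (Sp n)) (g : Sp n → Matrix (Fin n) (Fin n) ℝ)
    (u : Sp n → Fib N) (c : Fib N) :
    energy Ω g (0 : Sp n → Fin n → Matrix (Fin N) (Fin N) ℂ) u (fun _ => c) = 0 := by
  unfold energy
  simp [dens_eq, cov_zero_const, pair_zero_right]

/-- Full boundary data, arbitrary metrics: if `(g₂, A)` has the same data as `(g₁, 0)`, then
`A` is gauge equivalent to the trivial connection by a gauge that is the identity on the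
boundary. -/
theorem result (n N : ℕ) (Ω : Set (Sp n)) (ho : IsOpen Ω) (hb : Bornology.IsBounded Ω)
    (hc : IsConnected Ω) (hne : (frontier Ω).Nonempty)
    (g₁ g₂ : Sp n → Matrix (Fin n) (Fin n) ℝ) (hg₁ : IsMetric Ω g₁) (hg₂ : IsMetric Ω g₂)
    (A : Sp n → Fin n → Matrix (Fin N) (Fin N) ℂ) (hA : IsUnitaryConn Ω A)
    (h : SameData Ω (frontier Ω) g₁ 0 g₂ A) :
    GaugeEquiv Ω (frontier Ω) 0 A := by
  have key : ∀ l : Fin N, ∃ s : Sp n → Fib N, ContDiff ℝ ∞ s ∧
      (∀ x ∈ closure Ω, cov A s x = 0) ∧ ∀ x ∈ frontier Ω, s x = Pi.single l 1 := by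
    intro l
    have hf : IsDatum Ω (frontier Ω) (fun _ => (Pi.single l 1 : Fib N)) :=
      ⟨contDiff_const, closure_minimal (fun x hx => hx.1) isClosed_frontier⟩
    obtain ⟨u₁, v₁, u₂, v₂, hu₁, hv₁, hu₂, hv₂, he⟩ := h _ _ hf hf
    have h1 : energy Ω g₁ 0 u₁ v₁ = 0 := by
      rw [hu₁.energy_congr hb hg₁ (isUnitaryConn_zero Ω) hv₁.smooth contDiff_const hv₁.bdry]
      exact energy_const_right Ω g₁ u₁ _
    have h2 : energy Ω g₂ A u₂ u₂ = 0 := by
      rw [hu₂.energy_congr hb hg₂ hA hu₂.smooth hv₂.smooth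
        (fun x hx => (hu₂.bdry x hx).trans (hv₂.bdry x hx).symm), ← he, h1]
    exact ⟨u₂, hu₂.smooth, cov_eq_zero_of_energy ho hb hg₂ hA hu₂.smooth h2, hu₂.bdry⟩
  choose s hs hs0 hsΓ using key
  exact gaugeEquiv_zero_of_frame ho hc.isPreconnected hA frontier_subset_closure hne s hs hs0 hsΓ

end Vale.Agent.Results.P088.FullDataTrivialConn
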