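import Vale.Agent.P088.PatchMain

namespace Vale.Agent.Results.P088.PatchTrivialConn

open Vale.Agent.P088 MeasureTheory Matrix
open scoped ContDiff

/-- Data on one boundary patch `Γ = ∂M ∩ O`, one arbitrary smooth metric `g`: if `(g, A)` has the
same data on `Γ` as `(g, 0)`, then `A = U⁻¹ dU` in the interior for a `U(N)`-valued `U` that is
smooth in the interior and up to `Γ` and equals the identity on `Γ`. -/
theorem result (n N : ℕ) (Ω O : Set (Sp n)) (ho : IsOpen Ω) (hb : Bornology.IsBounded Ω)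
    (hc : IsConnected Ω) (hnull : volume (frontier Ω) = 0) (hO : IsOpen O)
    (hne : (frontier Ω ∩ O).Nonempty)
    (g : Sp n → Matrix (Fin n) (Fin n) ℝ) (hg : IsMetric Ω g)
    (A : Sp n → Fin n → Matrix (Fin N) (Fin N) ℂ) (hA : IsUnitaryConn Ω A)
    (h : SameData Ω (frontier Ω ∩ O) g 0 g A) :
    ∃ U : Sp n → Matrix (Fin N) (Fin N) ℂ,
      (∀ k l, ContDiffOn ℝ ∞ (fun x => U x k l) (Ω ∪ frontier Ω ∩ O)) ∧
      (∀ x ∈ Ω ∪ frontier Ω ∩ O, U x ∈ Matrix.unitaryGroup (Fin N) ℂ) ∧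
      (∀ x ∈ frontier Ω ∩ O, U x = 1) ∧
      ∀ x ∈ Ω, ∀ i, A x i = (U x)⁻¹ * dmat U x i :=
  patch_trivial ho hb hc.isPreconnected hnull hg hA hO hne h

end Vale.Agent.Results.P088.PatchTrivialConn
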