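import Vale.Agent.Results.P088.FullDataTrivialConn
import Vale.Agent.Results.P088.PatchTrivialConn

namespace Vale.Agent.Results.P088.TrivialConnBoth

open Vale.Agent.P088 MeasureTheory Matrix
open scoped ContDiff

/-- Both results on the trivial connection in one statement.
(1) Full boundary data, two arbitrary metrics: equal data of `(g₁, 0)` and `(g₂, A)` force
`A = U⁻¹ dU` on `M` with `U` smooth, unitary, `U = I` on the boundary.
(2) Data on one boundary patch `Γ = ∂M ∩ O`, one arbitrary metric: equal data of `(g, 0)` and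
`(g, A)` on `Γ` force `A = U⁻¹ dU` in the interior with `U` unitary, smooth in the interior and
up to `Γ`, `U = I` on `Γ`. -/
theorem result :
    (∀ (n N : ℕ) (Ω : Set (Sp n)), IsOpen Ω → Bornology.IsBounded Ω → IsConnected Ω →
      (frontier Ω).Nonempty →
      ∀ g₁ g₂ : Sp n → Matrix (Fin n) (Fin n) ℝ, IsMetric Ω g₁ → IsMetric Ω g₂ →
      ∀ A : Sp n → Fin n → Matrix (Fin N) (Fin N) ℂ, IsUnitaryConn Ω A →
      SameData Ω (frontier Ω) g₁ 0 g₂ A →
      ∃ U : Sp n → Matrix (Fin N) (Fin N) ℂ,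
        (∀ k l, ContDiff ℝ ∞ (fun x => U x k l)) ∧
        (∀ x ∈ closure Ω, U x ∈ Matrix.unitaryGroup (Fin N) ℂ) ∧
        (∀ x ∈ frontier Ω, U x = 1) ∧
        ∀ x ∈ closure Ω, ∀ i, A x i = (U x)⁻¹ * dmat U x i) ∧
    (∀ (n N : ℕ) (Ω O : Set (Sp n)), IsOpen Ω → Bornology.IsBounded Ω → IsConnected Ω →
      volume (frontier Ω) = 0 → IsOpen O → (frontier Ω ∩ O).Nonempty →
      ∀ g : Sp n → Matrix (Fin n) (Fin n) ℝ, IsMetric Ω g →
      ∀ A : Sp n → Fin n → Matrix (Fin N) (Fin N) ℂ, IsUnitaryConn Ω A →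
      SameData Ω (frontier Ω ∩ O) g 0 g A →
      ∃ U : Sp n → Matrix (Fin N) (Fin N) ℂ,
        (∀ k l, ContDiffOn ℝ ∞ (fun x => U x k l) (Ω ∪ frontier Ω ∩ O)) ∧
        (∀ x ∈ Ω ∪ frontier Ω ∩ O, U x ∈ Matrix.unitaryGroup (Fin N) ℂ) ∧
        (∀ x ∈ frontier Ω ∩ O, U x = 1) ∧
        ∀ x ∈ Ω, ∀ i, A x i = (U x)⁻¹ * dmat U x i) := by
  refine ⟨?_, ?_⟩
  · intro n N Ω ho hb hc hne g₁ g₂ hg₁ hg₂ A hA h
    obtain ⟨U, hU1, hU2, hU3, hU4⟩ :=
      Vale.Agent.Results.P088.FullDataTrivialConn.result n N Ω ho hb hc hne g₁ g₂ hg₁ hg₂ A hA h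
    refine ⟨U, hU1, hU2, hU3, fun x hx i => ?_⟩
    have := hU4 x hx i
    simpa using this
  · intro n N Ω O ho hb hc hnull hO hne g hg A hA h
    exact Vale.Agent.Results.P088.PatchTrivialConn.result n N Ω O ho hb hc hnull hO hne g hg A hA h

end Vale.Agent.Results.P088.TrivialConnBoth
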